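import Mathlib

open Finset

namespace Vale.Agent.Lib.P034

theorem sum_image_le_sum {α β : Type} [DecidableEq α] [DecidableEq β] (s : Finset α) (f : α → β)
    (h : β → ℝ) (hh : ∀ b, 0 ≤ h b) : ∑ b ∈ s.image f, h b ≤ ∑ a ∈ s, h (f a) := by
  induction s using Finset.induction_on with
  | empty => simp
  | insert a s ha ih =>
    rw [image_insert, sum_insert ha]
    by_cases hmem : f a ∈ s.image f
    · rw [insert_eq_of_mem hmem]
      linarith [hh (f a)]
    · rw [sum_insert hmem]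
      linarith

theorem sum_biUnion_le_sum {α β : Type} [DecidableEq α] [DecidableEq β] (s : Finset α)
    (t : α → Finset β) (h : β → ℝ) (hh : ∀ b, 0 ≤ h b) :
    ∑ b ∈ s.biUnion t, h b ≤ ∑ a ∈ s, ∑ b ∈ t a, h b := by
  induction s using Finset.induction_on with
  | empty => simp
  | insert a s ha ih =>
    rw [biUnion_insert, sum_insert ha]
    have h1 := sum_union_inter (s₁ := t a) (s₂ := s.biUnion t) (f := h)
    have h2 : 0 ≤ ∑ b ∈ t a ∩ s.biUnion t, h b := sum_nonneg (fun b _ => hh b)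
    linarith

theorem num1 (N : ℕ) : ∑ j ∈ range N, ((j:ℝ)+1) * (1/2)^j + (2*N+4) * (1/2)^N = 4 := by
  induction N with
  | zero => norm_num
  | succ n ih =>
    rw [sum_range_succ, pow_succ]
    push_cast
    linarith

theorem num2 (N : ℕ) : ∑ κ ∈ range (N+3), (((κ - 2 : ℕ) : ℝ)) * (1/2)^κ < 1/2 := by
  rw [sum_range_succ', sum_range_succ', sum_range_succ']
  have h : ∀ j ∈ range N, (((j + 1 + 1 + 1 - 2 : ℕ) : ℝ)) * (1/2)^(j+1+1+1)
      = (1/8) * (((j:ℝ)+1) * (1/2)^j) := by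
    intro j _
    have : j + 1 + 1 + 1 - 2 = j + 1 := by omega
    rw [this]
    push_cast
    ring
  rw [sum_congr rfl h, ← mul_sum]
  have h1 := num1 N
  have h2 : (0:ℝ) < (2*N+4) * (1/2)^N := by positivity
  norm_num
  linarith

theorem num3 (N : ℕ) : ∑ j ∈ range N, (1/9:ℝ)^(j+1) + (1/8) * (1/9)^N = 1/8 := by
  induction N with
  | zero => norm_num
  | succ n ih =>
    rw [sum_range_succ, pow_succ]
    linarith

theorem num4 (N : ℕ) : ∑ κ ∈ range (N+3), (1/9:ℝ)^(max 1 (κ - 2)) ≤ 1/2 := by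
  rw [sum_range_succ', sum_range_succ', sum_range_succ']
  have h : ∀ j ∈ range N, (1/9:ℝ)^(max 1 (j + 1 + 1 + 1 - 2)) = (1/9:ℝ)^(j+1) := by
    intro j _
    have : max 1 (j + 1 + 1 + 1 - 2) = j + 1 := by omega
    rw [this]
  rw [sum_congr rfl h]
  have h1 := num3 N
  have h2 : (0:ℝ) ≤ (1/8) * (1/9)^N := by positivity
  norm_num
  linarith

theorem class_cost {ι : Type} [DecidableEq ι] (C : Finset ι) (π : ι → ℝ) (hπ : ∀ i, 0 ≤ π i)
    (m : ℕ) (hm : ∑ i ∈ C, π i / 2 ≤ m) :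
    ∑ J ∈ C.powersetCard m, ∏ i ∈ J, (π i / 49) ≤ (1/9:ℝ)^m := by
  have h1 : ∀ J ∈ C.powersetCard m, ∏ i ∈ J, (π i / 49) = (2/49:ℝ)^m * ∏ i ∈ J, (π i / 2) := by
    intro J hJ
    rw [mem_powersetCard] at hJ
    rw [← hJ.2, ← prod_const, ← prod_mul_distrib]
    apply prod_congr rfl
    intro i _
    ring
  rw [sum_congr rfl h1, ← mul_sum]
  have h2 : ∑ J ∈ C.powersetCard m, ∏ i ∈ J, (π i / 2) ≤ ∑ J ∈ C.powerset, ∏ i ∈ J, (π i / 2) := by
    apply sum_le_sum_of_subset_of_nonneg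
      (fun J hJ => mem_powerset.mpr (mem_powersetCard.mp hJ).1)
    intro J _ _
    exact prod_nonneg (fun i _ => by have := hπ i; positivity)
  have h3 : ∑ J ∈ C.powerset, ∏ i ∈ J, (π i / 2) ≤ Real.exp (∑ i ∈ C, π i / 2) := by
    rw [← prod_one_add]
    exact Real.prod_one_add_le_exp_sum C (fun i => by have := hπ i; positivity)
  have h4 : Real.exp (∑ i ∈ C, π i / 2) ≤ Real.exp 1 ^ m := by
    rw [Real.exp_one_pow]
    exact Real.exp_le_exp.mpr hm
  have h5 : (2/49:ℝ)^m * Real.exp 1 ^ m ≤ (1/9:ℝ)^m := by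
    rw [← mul_pow]
    apply pow_le_pow_left₀ (by positivity)
    have := Real.exp_one_lt_d9
    linarith
  calc (2/49:ℝ)^m * ∑ J ∈ C.powersetCard m, ∏ i ∈ J, (π i / 2)
      ≤ (2/49:ℝ)^m * Real.exp 1 ^ m := by
        apply mul_le_mul_of_nonneg_left (h2.trans (h3.trans h4)) (by positivity)
    _ ≤ _ := h5

theorem abstract_cover {ι : Type} [DecidableEq ι] (s : Finset ι) (w π : ι → ℝ)
    (hw : ∀ i ∈ s, 0 < w i) (hπ : ∀ i, 0 ≤ π i) (hcost : ∑ i ∈ s, w i * π i ≤ 1/2) :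
    ∃ (k : ι → ℕ) (m : ℕ → ℕ) (M : ℕ), (∀ κ, 1 ≤ m κ) ∧
      (∀ I ⊆ s, 1 ≤ ∑ i ∈ I, w i → ∃ κ ∈ range M, m κ ≤ (I.filter (fun i => k i = κ)).card) ∧
      (∑ κ ∈ range M, ∑ J ∈ (s.filter (fun i => k i = κ)).powersetCard (m κ),
        ∏ i ∈ J, (π i / 49)) ≤ 1/2 := by
  classical
  have hk : ∀ i, ∃ n : ℕ, i ∈ s →
      ((1/2:ℝ)^(n+1) < min (w i) 1 ∧ min (w i) 1 ≤ (1/2:ℝ)^n) := by
    intro i
    by_cases hi : i ∈ s
    · obtain ⟨n, h1, h2⟩ := exists_nat_pow_near_of_lt_one (lt_min (hw i hi) one_pos)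
        (min_le_right _ _) (by norm_num : (0:ℝ) < 1/2) (by norm_num)
      exact ⟨n, fun _ => ⟨h1, h2⟩⟩
    · exact ⟨0, fun h => absurd h hi⟩
  choose k hk using hk
  set P : ℕ → ℝ := fun κ => ∑ i ∈ s.filter (fun i => k i = κ), π i with hP
  have hP0 : ∀ κ, 0 ≤ P κ := fun κ => sum_nonneg (fun i _ => hπ i)
  set m : ℕ → ℕ := fun κ => max 1 ⌈P κ / 2 + ((κ - 2 : ℕ) : ℝ)⌉₊ with hm
  set M : ℕ := s.sup k + 3 with hM
  have hkM : ∀ i ∈ s, k i ∈ range M := by
    intro i hi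
    rw [mem_range]
    have := le_sup (f := k) hi
    omega
  refine ⟨k, m, M, fun κ => le_max_left _ _, ?_, ?_⟩
  · intro I hI hsum
    by_contra hcon
    push Not at hcon
    -- step A1
    have hA1 : 1 ≤ ∑ i ∈ I, min (w i) 1 := by
      by_cases hbig : ∃ i ∈ I, 1 ≤ w i
      · obtain ⟨i, hi, hwi⟩ := hbig
        have h1 : min (w i) 1 ≤ ∑ j ∈ I, min (w j) 1 :=
          single_le_sum (f := fun j => min (w j) 1)
            (fun j hj => le_min (hw j (hI hj)).le zero_le_one) hi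
        rwa [min_eq_right hwi] at h1
      · push Not at hbig
        have : ∑ i ∈ I, min (w i) 1 = ∑ i ∈ I, w i :=
          sum_congr rfl (fun i hi => min_eq_left (hbig i hi).le)
        rw [this]; exact hsum
    have hA2 : ∑ i ∈ I, min (w i) 1 ≤ ∑ i ∈ I, (1/2:ℝ)^(k i) :=
      sum_le_sum (fun i hi => (hk i (hI hi)).2)
    have hA3 : ∑ i ∈ I, (1/2:ℝ)^(k i)
        = ∑ κ ∈ range M, ((I.filter (fun i => k i = κ)).card : ℝ) * (1/2:ℝ)^κ := by
      rw [← sum_fiberwise_of_maps_to (fun i hi => hkM i (hI hi))]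
      apply sum_congr rfl
      intro κ _
      rw [sum_congr rfl (g := fun _ => (1/2:ℝ)^κ)]
      · rw [sum_const, nsmul_eq_mul]
      · intro i hi
        rw [(mem_filter.mp hi).2]
    have hA4 : ∀ κ ∈ range M, ((I.filter (fun i => k i = κ)).card : ℝ)
        ≤ P κ / 2 + ((κ - 2 : ℕ) : ℝ) := by
      intro κ hκ
      have h1 := hcon κ hκ
      have hy : 0 ≤ P κ / 2 + ((κ - 2 : ℕ) : ℝ) := by
        have := hP0 κ
        positivity
      rcases Nat.eq_zero_or_pos (I.filter (fun i => k i = κ)).card with h0 | hpos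
      · rw [h0]; simpa using hy
      · have h2 : (I.filter (fun i => k i = κ)).card < ⌈P κ / 2 + ((κ - 2 : ℕ) : ℝ)⌉₊ := by
          rcases lt_max_iff.mp h1 with h | h
          · omega
          · exact h
        exact (Nat.lt_ceil.mp h2).le
    have hA5 : ∑ κ ∈ range M, P κ * (1/2:ℝ)^κ ≤ 1 := by
      have h1 : ∑ κ ∈ range M, P κ * (1/2:ℝ)^κ = ∑ i ∈ s, π i * (1/2:ℝ)^(k i) := by
        rw [← sum_fiberwise_of_maps_to hkM]
        apply sum_congr rfl
        intro κ _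
        rw [hP, sum_mul]
        apply sum_congr rfl
        intro i hi
        rw [(mem_filter.mp hi).2]
      rw [h1]
      have h2 : ∀ i ∈ s, π i * (1/2:ℝ)^(k i) ≤ 2 * (w i * π i) := by
        intro i hi
        have h3 := (hk i hi).1
        have h4 : min (w i) 1 ≤ w i := min_le_left _ _
        have h5 : (1/2:ℝ)^(k i) ≤ 2 * w i := by
          rw [pow_succ] at h3
          linarith
        calc π i * (1/2:ℝ)^(k i) ≤ π i * (2 * w i) := mul_le_mul_of_nonneg_left h5 (hπ i)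
          _ = 2 * (w i * π i) := by ring
      calc ∑ i ∈ s, π i * (1/2:ℝ)^(k i) ≤ ∑ i ∈ s, 2 * (w i * π i) := sum_le_sum h2
        _ = 2 * ∑ i ∈ s, w i * π i := by rw [mul_sum]
        _ ≤ 1 := by linarith
    have hA6 := num2 (s.sup k)
    have hfin : ∑ κ ∈ range M, ((I.filter (fun i => k i = κ)).card : ℝ) * (1/2:ℝ)^κ
        ≤ (1/2) * ∑ κ ∈ range M, P κ * (1/2:ℝ)^κ
          + ∑ κ ∈ range M, (((κ - 2 : ℕ) : ℝ)) * (1/2)^κ := by
      rw [mul_sum, ← sum_add_distrib]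
      apply sum_le_sum
      intro κ hκ
      have h1 := hA4 κ hκ
      have h2 : (0:ℝ) ≤ (1/2:ℝ)^κ := by positivity
      nlinarith
    linarith
  · have h1 : ∀ κ ∈ range M, ∑ J ∈ (s.filter (fun i => k i = κ)).powersetCard (m κ),
        ∏ i ∈ J, (π i / 49) ≤ (1/9:ℝ)^(max 1 (κ - 2)) := by
      intro κ _
      have hle : P κ / 2 + ((κ - 2 : ℕ) : ℝ) ≤ (m κ : ℝ) := by
        calc P κ / 2 + ((κ - 2 : ℕ) : ℝ) ≤ (⌈P κ / 2 + ((κ - 2 : ℕ) : ℝ)⌉₊ : ℝ) := Nat.le_ceil _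
          _ ≤ (m κ : ℝ) := by exact_mod_cast le_max_right _ _
      have h2 : ∑ i ∈ s.filter (fun i => k i = κ), π i / 2 ≤ (m κ : ℝ) := by
        rw [← sum_div]
        have : (0:ℝ) ≤ ((κ - 2 : ℕ) : ℝ) := by positivity
        change P κ / 2 ≤ _
        linarith
      have h3 : max 1 (κ - 2) ≤ m κ := by
        apply max_le (le_max_left _ _)
        have : ((κ - 2 : ℕ) : ℝ) ≤ (m κ : ℝ) := by
          have := hP0 κ
          linarith
        exact_mod_cast this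
      calc _ ≤ (1/9:ℝ)^(m κ) := class_cost _ π hπ (m κ) h2
        _ ≤ (1/9:ℝ)^(max 1 (κ - 2)) :=
          pow_le_pow_of_le_one (by norm_num) (by norm_num) h3
    exact (sum_le_sum h1).trans (num4 (s.sup k))

end Vale.Agent.Lib.P034
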