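import Vale.Agent.Lib.P034.Basic
import Vale.Agent.Lib.P034.Core

open Finset

namespace Vale.Agent.Lib.P034

variable {X : Type} [Fintype X] [DecidableEq X]

theorem pow_div_le (p : ℝ) (hp0 : 0 ≤ p) (c : ℕ) (hc : 1 ≤ c) : (p / 49) ^ c ≤ p ^ c / 49 := by
  rw [div_pow]
  apply div_le_div_of_nonneg_left (by positivity) (by norm_num)
  calc (49:ℝ) = 49 ^ 1 := by norm_num
    _ ≤ 49 ^ c := pow_le_pow_right₀ (by norm_num) hc

theorem small_of_disjoint_decomposition (F : Finset (Finset X)) (TT : Finset (Finset X))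
    (W : Finset X → ℝ) (p θ : ℝ) (hp0 : 0 ≤ p) (hθ : 0 < θ)
    (hne : ∀ T ∈ TT, T.Nonempty) (hW : ∀ T ∈ TT, 0 ≤ W T)
    (hcost : ∑ T ∈ TT, W T * p ^ T.card ≤ θ / 2)
    (hdec : ∀ H ∈ F, ∃ D ⊆ TT, (D : Set (Finset X)).PairwiseDisjoint id ∧ (∀ T ∈ D, T ⊆ H) ∧
      θ ≤ ∑ T ∈ D, W T) :
    IsSmall F (p / 49) := by
  classical
  set s := TT.filter (fun T => 0 < W T) with hs
  have hcost' : ∑ T ∈ s, (W T / θ) * p ^ T.card ≤ 1 / 2 := by
    have h1 : ∑ T ∈ s, W T * p ^ T.card ≤ ∑ T ∈ TT, W T * p ^ T.card := by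
      apply sum_le_sum_of_subset_of_nonneg (filter_subset _ _)
      intro T hT _
      have := hW T hT
      positivity
    have h2 : ∑ T ∈ s, (W T / θ) * p ^ T.card = (∑ T ∈ s, W T * p ^ T.card) / θ := by
      rw [sum_div]
      apply sum_congr rfl
      intro T _
      ring
    rw [h2, div_le_iff₀ hθ]
    linarith
  obtain ⟨k, m, M, hm1, hcov, hc⟩ := abstract_cover s (fun T => W T / θ) (fun T => p ^ T.card)
    (fun T hT => div_pos (mem_filter.mp hT).2 hθ) (fun T => by positivity) hcost'
  set JJ : Finset (Finset (Finset X)) := (range M).biUnion (fun κ =>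
    ((s.filter (fun T => k T = κ)).powersetCard (m κ)).filter
      (fun J : Finset (Finset X) => (J : Set (Finset X)).PairwiseDisjoint id)) with hJJ
  refine ⟨JJ.image (fun J => J.biUnion id), ?_, ?_⟩
  · intro H hH
    obtain ⟨D, hD, hdisj, hsub, hsum⟩ := hdec H hH
    have hI : D.filter (fun T => 0 < W T) ⊆ s := by
      intro T hT
      rw [mem_filter] at hT
      exact mem_filter.mpr ⟨hD hT.1, hT.2⟩
    have hsumI : 1 ≤ ∑ T ∈ D.filter (fun T => 0 < W T), W T / θ := by
      rw [← sum_div, le_div_iff₀ hθ, one_mul, sum_filter]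
      calc θ ≤ ∑ T ∈ D, W T := hsum
        _ ≤ ∑ T ∈ D, if 0 < W T then W T else 0 := by
          apply sum_le_sum
          intro T _
          split_ifs with h
          · exact le_refl _
          · exact not_lt.mp h
    obtain ⟨κ, hκ, hcard⟩ := hcov _ hI hsumI
    obtain ⟨J, hJsub, hJcard⟩ := exists_subset_card_eq hcard
    have hJD : J ⊆ D := fun T hT => (mem_filter.mp (mem_filter.mp (hJsub hT)).1).1
    refine ⟨J.biUnion id, ?_, ?_⟩
    · apply mem_image_of_mem
      rw [hJJ, mem_biUnion]
      refine ⟨κ, hκ, ?_⟩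
      rw [mem_filter, mem_powersetCard]
      refine ⟨⟨?_, hJcard⟩, ?_⟩
      · intro T hT
        have h1 := mem_filter.mp (hJsub hT)
        exact mem_filter.mpr ⟨hI h1.1, h1.2⟩
      · exact hdisj.subset (by exact_mod_cast hJD)
    · intro x hx
      rw [mem_biUnion] at hx
      obtain ⟨T, hT, hxT⟩ := hx
      exact hsub T (hJD hT) hxT
  · unfold cost
    have h1 := sum_image_le_sum JJ (fun J => J.biUnion id) (fun S => (p / 49) ^ S.card)
      (fun S => by positivity)
    have h2 := sum_biUnion_le_sum (range M) (fun κ =>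
      ((s.filter (fun T => k T = κ)).powersetCard (m κ)).filter
        (fun J : Finset (Finset X) => (J : Set (Finset X)).PairwiseDisjoint id))
      (fun J : Finset (Finset X) => (p / 49) ^ (J.biUnion id).card) (fun J => by positivity)
    refine h1.trans (h2.trans (le_trans ?_ hc))
    apply sum_le_sum
    intro κ _
    calc ∑ J ∈ ((s.filter (fun T => k T = κ)).powersetCard (m κ)).filter
            (fun J : Finset (Finset X) => (J : Set (Finset X)).PairwiseDisjoint id), (p / 49) ^ (J.biUnion id).card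
        ≤ ∑ J ∈ ((s.filter (fun T => k T = κ)).powersetCard (m κ)).filter
            (fun J : Finset (Finset X) => (J : Set (Finset X)).PairwiseDisjoint id), ∏ T ∈ J, (p ^ T.card / 49) := by
          apply sum_le_sum
          intro J hJ
          rw [mem_filter, mem_powersetCard] at hJ
          rw [card_biUnion hJ.2, ← prod_pow_eq_pow_sum]
          apply prod_le_prod
          · intro T _
            positivity
          · intro T hT
            have hTs : T ∈ TT := (mem_filter.mp (mem_filter.mp (hJ.1.1 hT)).1).1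
            exact pow_div_le p hp0 _ (hne T hTs).card_pos
      _ ≤ _ := by
          apply sum_le_sum_of_subset_of_nonneg (filter_subset _ _)
          intro J _ _
          exact prod_nonneg (fun T _ => by positivity)

end Vale.Agent.Lib.P034
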