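import Vale.Agent.Lib.P034.Decomp

open Finset

namespace Vale.Agent.Lib.P034

variable {X : Type} [Fintype X] [DecidableEq X]

/-- cut formulation of connectivity of the vertex set `T` -/
def CutConn (Γ : SimpleGraph X) (T : Finset X) : Prop :=
  T.Nonempty ∧ ∀ U ⊆ T, U.Nonempty → U ≠ T → ∃ u ∈ U, ∃ v ∈ T \ U, Γ.Adj u v

omit [Fintype X] in
theorem cutConn_of_preconnected (Γ : SimpleGraph X) (S : Finset X) (hne : S.Nonempty)
    (h : (Γ.induce (S : Set X)).Preconnected) : CutConn Γ S := by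
  refine ⟨hne, ?_⟩
  intro U hU hUne hUS
  obtain ⟨a, ha⟩ := hUne
  have : ∃ b ∈ S, b ∉ U := by
    by_contra hcon
    push Not at hcon
    exact hUS (Subset.antisymm hU hcon)
  obtain ⟨b, hbS, hbU⟩ := this
  obtain ⟨w⟩ := h ⟨a, by exact_mod_cast hU ha⟩ ⟨b, by exact_mod_cast hbS⟩
  obtain ⟨d, _, hd1, hd2⟩ := w.exists_boundary_dart {x | x.1 ∈ U} ha hbU
  refine ⟨d.fst.1, hd1, d.snd.1, ?_, ?_⟩
  · rw [mem_sdiff]
    exact ⟨by exact_mod_cast d.snd.2, hd2⟩
  · exact d.adj

omit [Fintype X] in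
theorem CutConn.union {Γ : SimpleGraph X} {T1 T2 : Finset X} (h1 : CutConn Γ T1)
    (h2 : CutConn Γ T2) (hnd : ¬ Disjoint T1 T2) : CutConn Γ (T1 ∪ T2) := by
  refine ⟨h1.1.mono subset_union_left, ?_⟩
  intro U hU hUne hUT
  rw [not_disjoint_iff] at hnd
  obtain ⟨x, hx1, hx2⟩ := hnd
  by_cases hc1 : (U ∩ T1).Nonempty ∧ U ∩ T1 ≠ T1
  · obtain ⟨u, hu, v, hv, hadj⟩ := h1.2 (U ∩ T1) inter_subset_right hc1.1 hc1.2
    refine ⟨u, (mem_inter.mp hu).1, v, ?_, hadj⟩
    rw [mem_sdiff] at hv ⊢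
    exact ⟨mem_union_left _ hv.1, fun hvU => hv.2 (mem_inter.mpr ⟨hvU, hv.1⟩)⟩
  by_cases hc2 : (U ∩ T2).Nonempty ∧ U ∩ T2 ≠ T2
  · obtain ⟨u, hu, v, hv, hadj⟩ := h2.2 (U ∩ T2) inter_subset_right hc2.1 hc2.2
    refine ⟨u, (mem_inter.mp hu).1, v, ?_, hadj⟩
    rw [mem_sdiff] at hv ⊢
    exact ⟨mem_union_right _ hv.1, fun hvU => hv.2 (mem_inter.mpr ⟨hvU, hv.1⟩)⟩
  exfalso
  push Not at hc1 hc2
  by_cases hxU : x ∈ U
  · have e1 := hc1 ⟨x, mem_inter.mpr ⟨hxU, hx1⟩⟩
    have e2 := hc2 ⟨x, mem_inter.mpr ⟨hxU, hx2⟩⟩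
    apply hUT
    apply Subset.antisymm hU
    intro y hy
    rcases mem_union.mp hy with hy | hy
    · rw [← e1] at hy; exact (mem_inter.mp hy).1
    · rw [← e2] at hy; exact (mem_inter.mp hy).1
  · obtain ⟨y, hy⟩ := hUne
    rcases mem_union.mp (hU hy) with hy1 | hy2
    · have e1 := hc1 ⟨y, mem_inter.mpr ⟨hy, hy1⟩⟩
      rw [← e1] at hx1
      exact hxU (mem_inter.mp hx1).1
    · have e2 := hc2 ⟨y, mem_inter.mpr ⟨hy, hy2⟩⟩
      rw [← e2] at hx2
      exact hxU (mem_inter.mp hx2).1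

/-- boundary vertices still available to the exploration -/
noncomputable def cand (Γ : SimpleGraph X) (U B : Finset X) : Finset X := by
  classical
  exact univ.filter (fun v => v ∉ U ∧ v ∉ B ∧ ∃ u ∈ U, Γ.Adj u v)

open Classical in
theorem explore_base (Γ : SimpleGraph X) (p : ℝ) (hp0 : 0 ≤ p) (U B : Finset X)
    (hU : U.Nonempty) (hc : cand Γ U B = ∅) :
    ∑ T ∈ univ.filter (fun T => CutConn Γ T ∧ U ⊆ T ∧ Disjoint T B), p ^ T.card
      ≤ p ^ U.card := by
  have hsub : univ.filter (fun T => CutConn Γ T ∧ U ⊆ T ∧ Disjoint T B) ⊆ {U} := by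
    intro T hT
    rw [mem_filter] at hT
    rw [mem_singleton]
    by_contra hne
    obtain ⟨u, hu, v, hv, hadj⟩ := hT.2.1.2 U hT.2.2.1 hU (fun h => hne h.symm)
    rw [mem_sdiff] at hv
    have : v ∈ cand Γ U B := by
      unfold cand
      rw [mem_filter]
      exact ⟨mem_univ _, hv.2, fun hvB => (disjoint_left.mp hT.2.2.2) hv.1 hvB, u, hu, hadj⟩
    rw [hc] at this
    exact absurd this (notMem_empty _)
  calc _ ≤ ∑ T ∈ ({U} : Finset (Finset X)), p ^ T.card :=
        sum_le_sum_of_subset_of_nonneg hsub (fun T _ _ => by positivity)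
    _ = p ^ U.card := by simp

open Classical in
theorem explore (Γ : SimpleGraph X) (Δ : ℕ)
    (hΔ : ∀ v, (univ.filter (fun u => Γ.Adj v u)).card ≤ Δ)
    (p α : ℝ) (hp0 : 0 ≤ p) (hα : 0 ≤ α) (hrec : p * (1 + α) ^ Δ ≤ α) :
    ∀ n : ℕ, ∀ U B : Finset X, U.Nonempty → (univ \ (U ∪ B)).card ≤ n →
      ∑ T ∈ univ.filter (fun T => CutConn Γ T ∧ U ⊆ T ∧ Disjoint T B), p ^ T.card
        ≤ p ^ U.card * (1 + α) ^ (cand Γ U B).card := by
  have h1α : (1:ℝ) ≤ 1 + α := by linarith
  have hbase : ∀ U B : Finset X, U.Nonempty → cand Γ U B = ∅ →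
      ∑ T ∈ univ.filter (fun T => CutConn Γ T ∧ U ⊆ T ∧ Disjoint T B), p ^ T.card
        ≤ p ^ U.card * (1 + α) ^ (cand Γ U B).card := by
    intro U B hU hc
    rw [hc, card_empty, pow_zero, mul_one]
    exact explore_base Γ p hp0 U B hU hc
  intro n
  induction n with
  | zero =>
    intro U B hU hn
    apply hbase U B hU
    rw [eq_empty_iff_forall_notMem]
    intro v hv
    unfold cand at hv
    rw [mem_filter] at hv
    have : v ∈ univ \ (U ∪ B) := by
      rw [mem_sdiff, mem_union]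
      exact ⟨mem_univ _, fun h => h.elim hv.2.1 hv.2.2.1⟩
    rw [Nat.le_zero, card_eq_zero] at hn
    rw [hn] at this
    exact absurd this (notMem_empty _)
  | succ n ih =>
    intro U B hU hn
    by_cases hc : cand Γ U B = ∅
    · exact hbase U B hU hc
    obtain ⟨v, hv⟩ := nonempty_iff_ne_empty.mpr hc
    have hv' := hv
    unfold cand at hv'
    rw [mem_filter] at hv'
    obtain ⟨_, hvU, hvB, _⟩ := hv'
    have hvmem : v ∈ univ \ (U ∪ B) := by
      rw [mem_sdiff, mem_union]
      exact ⟨mem_univ _, fun h => h.elim hvU hvB⟩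
    have hcard1 : (univ \ (insert v U ∪ B)).card ≤ n := by
      have hsub : univ \ (insert v U ∪ B) ⊆ (univ \ (U ∪ B)).erase v := by
        intro y hy
        simp only [mem_sdiff, mem_univ, true_and, mem_union, mem_insert, not_or, mem_erase] at hy ⊢
        tauto
      have := card_le_card hsub
      rw [card_erase_of_mem hvmem] at this
      omega
    have hcard2 : (univ \ (U ∪ insert v B)).card ≤ n := by
      have hsub : univ \ (U ∪ insert v B) ⊆ (univ \ (U ∪ B)).erase v := by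
        intro y hy
        simp only [mem_sdiff, mem_univ, true_and, mem_union, mem_insert, not_or, mem_erase] at hy ⊢
        tauto
      have := card_le_card hsub
      rw [card_erase_of_mem hvmem] at this
      omega
    have ih1 := ih (insert v U) B (insert_nonempty _ _) hcard1
    have ih2 := ih U (insert v B) hU hcard2
    obtain ⟨c', hc'⟩ : ∃ c', (cand Γ U B).card = c' + 1 :=
      ⟨(cand Γ U B).card - 1, by have := card_pos.mpr ⟨v, hv⟩; omega⟩
    have hcand2 : (cand Γ U (insert v B)).card ≤ c' := by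
      have hsub : cand Γ U (insert v B) ⊆ (cand Γ U B).erase v := by
        intro y hy
        unfold cand at hy ⊢
        simp only [mem_filter, mem_univ, true_and, mem_insert, not_or, mem_erase] at hy ⊢
        tauto
      have := card_le_card hsub
      rw [card_erase_of_mem hv] at this
      omega
    have hcand1 : (cand Γ (insert v U) B).card ≤ c' + Δ := by
      have hsub : cand Γ (insert v U) B ⊆ (cand Γ U B).erase v ∪ univ.filter (fun u => Γ.Adj v u) := by
        intro y hy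
        unfold cand at hy ⊢
        simp only [mem_filter, mem_univ, true_and, mem_insert, not_or, mem_erase, mem_union] at hy ⊢
        obtain ⟨⟨h1, h2⟩, h3, u, hu, hadj⟩ := hy
        rcases hu with rfl | hu
        · right; exact hadj
        · left; exact ⟨h1, h2, h3, u, hu, hadj⟩
      have h1 := card_le_card hsub
      have h2 := card_union_le ((cand Γ U B).erase v) (univ.filter (fun u => Γ.Adj v u))
      rw [card_erase_of_mem hv] at h2
      have h3 := hΔ v
      omega
    have hsplit := sum_filter_add_sum_filter_not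
      (univ.filter (fun T => CutConn Γ T ∧ U ⊆ T ∧ Disjoint T B)) (fun T => v ∈ T)
      (fun T => p ^ T.card)
    have e1 : (univ.filter (fun T => CutConn Γ T ∧ U ⊆ T ∧ Disjoint T B)).filter (fun T => v ∈ T)
        = univ.filter (fun T => CutConn Γ T ∧ insert v U ⊆ T ∧ Disjoint T B) := by
      ext T
      simp only [mem_filter, mem_univ, true_and, insert_subset_iff]
      tauto
    have e2 : (univ.filter (fun T => CutConn Γ T ∧ U ⊆ T ∧ Disjoint T B)).filter (fun T => ¬ v ∈ T)
        = univ.filter (fun T => CutConn Γ T ∧ U ⊆ T ∧ Disjoint T (insert v B)) := by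
      ext T
      simp only [mem_filter, mem_univ, true_and, disjoint_insert_right]
      tauto
    rw [e1, e2] at hsplit
    rw [← hsplit, hc']
    rw [card_insert_of_notMem hvU] at ih1
    have b1 : p ^ (U.card + 1) * (1 + α) ^ (cand Γ (insert v U) B).card
        ≤ p ^ (U.card + 1) * (1 + α) ^ (c' + Δ) :=
      mul_le_mul_of_nonneg_left (pow_le_pow_right₀ h1α hcand1) (by positivity)
    have b2 : p ^ U.card * (1 + α) ^ (cand Γ U (insert v B)).card
        ≤ p ^ U.card * (1 + α) ^ c' :=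
      mul_le_mul_of_nonneg_left (pow_le_pow_right₀ h1α hcand2) (by positivity)
    have b3 : p ^ (U.card + 1) * (1 + α) ^ (c' + Δ) + p ^ U.card * (1 + α) ^ c'
        ≤ p ^ U.card * (1 + α) ^ (c' + 1) := by
      have : p ^ (U.card + 1) * (1 + α) ^ (c' + Δ) + p ^ U.card * (1 + α) ^ c'
          = p ^ U.card * (1 + α) ^ c' * (p * (1 + α) ^ Δ + 1) := by ring
      rw [this, pow_succ, ← mul_assoc]
      apply mul_le_mul_of_nonneg_left (by linarith) (by positivity)
    linarith

end Vale.Agent.Lib.P034
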